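import Vale.Agent.P126.Defs
import Vale.Agent.P126.Geom

open scoped Pointwise
open Vale.Agent.P126

/-- For all constants, each of the two inequalities of the duality conjecture fails separately,
already when `L` is the cube `[-1,1]^n`. -/
theorem Vale.Agent.Results.P126.BothFail.result (a b : ℝ) (ha : 1 ≤ a) (hb : 1 ≤ b) :
    (∃ n : ℕ, 1 ≤ n ∧ IsSymmBody (cube n) ∧
      ∃ K : Set (EuclideanSpace ℝ (Fin n)), IsSymmBody K ∧
        b * Real.log (covNum (polarBody (cube n)) (a⁻¹ • polarBody K))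
          < Real.log (covNum K (cube n))) ∧
    (∃ n : ℕ, 1 ≤ n ∧ IsSymmBody (cube n) ∧
      ∃ K : Set (EuclideanSpace ℝ (Fin n)), IsSymmBody K ∧
        Real.log (covNum K (cube n))
          < (1 / b) * Real.log (covNum (polarBody (cube n)) (a • polarBody K))) := by
  obtain ⟨n, hn, K, hK, hlt⟩ := right_fails a b ha hb
  obtain ⟨n', hn', K', hK', hlt'⟩ := left_fails a b ha hb
  exact ⟨⟨n, hn, cube_isSymmBody, K, hK, hlt⟩, ⟨n', hn', cube_isSymmBody, K', hK', hlt'⟩⟩
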